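import Vale.Agent.P157.All

open Filter Topology Vale.Agent.P157

/-- Free energy of the Ising perceptron with Gaussian patterns, for every density and every
bounded Borel log-potential. -/
theorem Vale.Agent.Results.P157.Ising.result (α : ℝ) (hα : 0 < α) (f : ℝ → ℝ)
    (hf : Measurable f) (hB : ∃ B, ∀ t, |f t| ≤ B) :
    (∀ n, 1 ≤ n → (∀ p, Vale.Agent.P157.Path n p → p 0 = 1 → BddAbove (dualSet n p)) ∧ BddBelow (valSet n α f)) ∧
    ∃ l : ℝ, Tendsto (fun n => Vn n α f) atTop (𝓝 l) ∧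
      Tendsto (fun N : ℕ => meanP f N ⌊α * N⌋₊) atTop (𝓝 l) :=
  ising α hα f hf hB
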