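import Vale.Agent.P157.S.AllS

open Filter Topology Vale.Agent.P157

/-- Free energy of the spherical perceptron with Gaussian patterns, for every density and every
bounded Borel log-potential. -/
theorem Vale.Agent.Results.P157.Sphere.result (α : ℝ) (hα : 0 < α) (f : ℝ → ℝ)
    (hf : Measurable f) (hB : ∃ B, ∀ t, |f t| ≤ B) :
    (∀ n, 1 ≤ n → (valS n α f).Nonempty ∧ BddBelow (valS n α f)) ∧
    ∃ l : ℝ, Tendsto (fun n => Vs n α f) atTop (𝓝 l) ∧
      Tendsto (fun N : ℕ => meanS f N ⌊α * N⌋₊) atTop (𝓝 l) :=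
  sphere α hα f hf hB
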